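import Vale.Agent.KK.Final

universe u

theorem Vale.Agent.Results.P096.B_semifinite.result (ε : ℝ) (hε : 0 < ε) :
    ∃ δ : ℝ, 0 < δ ∧ ∀ (H : Type u) [NormedAddCommGroup H] [InnerProductSpace ℂ H]
      [CompleteSpace H] (M N : VonNeumannAlgebra H), Vale.Agent.KK.SemiFin M →
      Vale.Agent.KK.kkDist M N < δ → ∃ w ∈ unitary (H →L[ℂ] H),
        (fun x => w * x * star w) '' (M : Set (H →L[ℂ] H)) = (N : Set (H →L[ℂ] H)) ∧
          ‖w - 1‖ < ε :=
  Vale.Agent.KK.strong_kk ε hε
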