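import Vale.Agent.P096.Stage1

universe u

theorem Vale.Agent.Results.P096.C_commutant.result (H : Type u) [NormedAddCommGroup H]
    [InnerProductSpace ℂ H] [CompleteSpace H] (M N : VonNeumannAlgebra H) (δ : ℝ)
    (h : Vale.Agent.P096.kkDist M N < δ) :
    ∀ s ∈ N.commutant, ∃ t ∈ M.commutant, ‖s - t‖ ≤ 160 * δ * ‖s‖ :=
  Vale.Agent.P096.stage_comm M N δ h
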