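import Vale.Agent.P096.Stage2

universe u

theorem Vale.Agent.Results.P096.D_linear.result (H : Type u) [NormedAddCommGroup H]
    [InnerProductSpace ℂ H] [CompleteSpace H] (M N : VonNeumannAlgebra H) (t : ℝ) (ht0 : 0 < t)
    (ht : t ≤ 1 / 10 ^ 6) (h : Vale.Agent.P096.kkDist N M < 1 / 4)
    (Φ : (H →L[ℂ] H) →ₗ[ℂ] (H →L[ℂ] H)) (hΦ : ∀ x ∈ M, Φ x ∈ N ∧ ‖Φ x - x‖ ≤ t * ‖x‖) :
    ∃ w ∈ unitary (H →L[ℂ] H), ‖w - 1‖ ≤ 10 ^ 6 * t ∧ ∀ x, x ∈ M ↔ w * x * star w ∈ N :=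
  Vale.Agent.P096.stage_lin M N t ht0 ht h Φ hΦ
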